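import Vale.Agent.P207.N4.Dim
import Vale.Agent.P207.N4.Top.Suite
import Vale.Agent.P207.N4.H229.Bus
import Vale.Agent.P207.N4.H790.ClockDef

/-!
# P207, line N7: the picture over which the abstract side works

`Rates M` : the rates `a`, `b` of the flow after the time `T`, with a clock, `b < 2 a`.
`Aff L` : (T1) the affine charts of the unstable leaves.
`Pic L V` : everything together. For a frame `x` and `ξ : B`:
* `P.dsc x q` : the point of the disc of `x` with affine coordinate `q` (`q ∈ ball 0 2`);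
* `P.dl x ξ q` : `b_ξ - b_{em x}` on the disc of `x`, in the affine coordinate `q`; the leaf `ξ` is
  the graph of `P.gr x ξ = ∇ (P.dl x ξ)`;
* `P.Th x ξ q : B` : the end point of the geodesic from `ξ` through the point `q` of the disc;
* `P.Aq x ξ q` : its affine coordinate (in the frame `hol ξ x`);
* `P.hh x ξ q` : the stable holonomy `U_{em x} → U_ξ` in the affine charts;
* `P.Hq x ξ q` : the stable holonomy in the coordinate `q`: `P.hh x ξ q = P.Aq x ξ (P.Hq x ξ q)`;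
* `P.N0 x q` : `(∇² (b_{em x} + b_η))⁻¹` at the point `q`, `η = pt x q`.
-/

open Set Filter Topology Metric MeasureTheory
open scoped ContDiff

noncomputable section

namespace Vale.Agent.P207.N4.Y

open Vale.Agent.P207.N3

variable [Dim]

variable {Γ X B : Type} [Group Γ] [MetricSpace X] [ProperSpace X] [MulAction Γ X]
  [IsIsometricSMul Γ X] [TopologicalSpace B] [CompactSpace B] [T2Space B] [MulAction Γ B]
  [ContinuousConstSMul Γ B]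

/-- The rates, with a clock `σ t x = ∫_0^t c (φ_s x) ds`: after the time `T` the flow expands the
unstable leaves by factors between `exp ((a + sl) σ)` and `exp ((b - sl) σ)`, with `b < 2 a`;
`a₀ ≤ U ≤ b₀` are crude bounds. -/
structure Rates {L : Leaf Γ X B} (M : Metr L) where
  a : ℝ
  b : ℝ
  a_pos : 0 < a
  a_le_b : a ≤ b
  pinch : b < 2 * a
  c : X → ℝ
  c_cont : Continuous c
  c_smul : ∀ (g : Γ) x, c (g • x) = c x
  c_rot : ∀ r x, c (L.rot r x) = c x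
  c_flip : ∀ x, c (L.flip x) = c x
  c₀ : ℝ
  c₁ : ℝ
  c₀_pos : 0 < c₀
  c_lo : ∀ x, c₀ ≤ c x
  c_hi : ∀ x, c x ≤ c₁
  T : ℝ
  T_pos : 0 < T
  sl : ℝ
  sl_pos : 0 < sl
  rate : ∀ t, T ≤ t → ∀ x v,
    Real.exp ((a + sl) * Clock.sg L c t x) * ‖v‖ ≤ ‖fderiv ℝ (L.τ x (L.φ t x)) 0 v‖ ∧
    ‖fderiv ℝ (L.τ x (L.φ t x)) 0 v‖ ≤ Real.exp ((b - sl) * Clock.sg L c t x) * ‖v‖
  a₀ : ℝ
  b₀ : ℝ
  a₀_pos : 0 < a₀
  lo : ∀ x v, a₀ * ‖v‖ ^ 2 ≤ inner ℝ (M.U x v) v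
  hi : ∀ x v, inner ℝ (M.U x v) v ≤ b₀ * ‖v‖ ^ 2

/-- (T1) The affine charts of the leaves: `ch x : B ∖ {em x} → E2`, with inverse `pt x`. They are
scaled such that the affine ball of radius `2` is contained in the disc of `x`. -/
structure Aff (L : Leaf Γ X B) where
  ch : X → B → E2
  pt : X → E2 → B
  pt_ne : ∀ x q, pt x q ≠ L.em x
  ch_pt : ∀ x q, ch x (pt x q) = q
  pt_ch : ∀ x η, η ≠ L.em x → pt x (ch x η) = η
  pt_zero : ∀ x, pt x 0 = L.ep x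
  pt_cont : Continuous fun p : X × E2 => pt p.1 p.2
  ch_cont : ContinuousOn (fun p : X × B => ch p.1 p.2) {p | p.2 ≠ L.em p.1}
  pt_smul : ∀ (g : Γ) x q, pt (g • x) q = g • pt x q
  pt_rot : ∀ a x q, pt (L.rot a x) q = pt x (a q)
  unit : ∀ x, ∀ q ∈ closedBall (0 : E2) 2, pt x q ∈ L.e x '' ball 0 1
  /-- the chart in the disc coordinate -/
  jc : JC (fun x u => ch x (L.e x u)) (univ ×ˢ ball 0 3)
  c : ℝ
  c_pos : 0 < c
  der_zero : ∀ x, fderiv ℝ (fun u => ch x (L.e x u)) 0 = c • ContinuousLinearMap.id ℝ E2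
  der_inv : ∀ x, ∀ u ∈ ball (0 : E2) 3, (fderiv ℝ (fun u => ch x (L.e x u)) u).IsInvertible
  /-- the flow is linear -/
  P : ℝ → X → E2 ≃L[ℝ] E2
  P_fderiv : ∀ t x, ((P t x).symm : E2 →L[ℝ] E2) = fderiv ℝ (L.τ (L.φ t x) x) 0
  flow : ∀ t x q, pt (L.φ t x) (P t x q) = pt x q
  /-- the change of frame on one leaf is affine -/
  lin : X → X → E2 ≃L[ℝ] E2
  leaf : ∀ x y, L.em x = L.em y → ∀ q, pt y (lin x y (q - ch x (L.ep y))) = pt x q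

namespace Aff

variable {L : Leaf Γ X B} (F : Aff L)

/-- the point of the disc with affine coordinate `q` -/
def dsc (x : X) (q : E2) : E2 := Function.invFunOn (L.e x) (closedBall (0 : E2) 3) (F.pt x q)

/-- the tensor in the affine coordinate -/
def Na (T : Tens L) (x : X) (q : E2) : E2 →L[ℝ] E2 :=
  fderiv ℝ (fun u => F.ch x (L.e x u)) (F.dsc x q) ∘L T.N x (F.dsc x q) ∘L
    ContinuousLinearMap.adjoint (fderiv ℝ (fun u => F.ch x (L.e x u)) (F.dsc x q))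

end Aff

/-- The data of the logic. -/
structure Pic (L : Leaf Γ X B) [MeasurableSpace B] [BorelSpace B] (V : Type)
    [NormedAddCommGroup V] [NormedSpace ℝ V] [FiniteDimensional ℝ V] where
  S : Suite L V
  Bu : Bus L S.T
  /-- the discs are transversal to the geodesics of their leaf (`H709.NuPos Bu`) -/
  nupos : ∀ x, ∀ q ∈ ball (0 : E2) 3, 0 < Bu.nu x (L.em x) q
  Af : Aff L
  Ra : Rates S.M

namespace Pic

variable {L : Leaf Γ X B} [MeasurableSpace B] [BorelSpace B] {V : Type}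
  [NormedAddCommGroup V] [NormedSpace ℝ V] [FiniteDimensional ℝ V] (P : Pic L V)

def dsc (x : X) (q : E2) : E2 := P.Af.dsc x q

/-- the Busemann function of `ζ` on the disc of `x`, in the affine coordinate -/
def bq (x : X) (ζ : B) (q : E2) : ℝ := P.Bu.be x ζ (P.dsc x q)

/-- the generating function of the leaf `ξ` over the leaf `em x` -/
def dl (x : X) (ξ : B) (q : E2) : ℝ := P.bq x ξ q - P.bq x (L.em x) q

def gr (x : X) (ξ : B) (q : E2) : E2 := gradient (P.dl x ξ) q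

/-- the leaf `ξ` is close to the leaf `em x`, at the frame `x` -/
def Nr (ε : ℝ) (x : X) (ξ : B) : Prop := 0 < P.Bu.nu x ξ 0 ∧ ‖P.gr x ξ 0‖ ≤ ε

def Th (x : X) (ξ : B) (q : E2) : B := P.Bu.en x ξ (P.dsc x q)

def Aq (x : X) (ξ : B) (q : E2) : E2 := P.Af.ch (L.hol ξ x) (P.Th x ξ q)

/-- the stable holonomy in the affine charts -/
def hh (x : X) (ξ : B) (q : E2) : E2 := P.Af.ch (L.hol ξ x) (P.Af.pt x q)

/-- the stable holonomy in the coordinate `q` -/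
def Hq (x : X) (ξ : B) (q : E2) : E2 :=
  Function.invFunOn (P.Th x ξ) (closedBall (0 : E2) 2) (P.Af.pt x q)

/-- the sum of the Busemann functions of `ξ` and of `η` on the disc of `x` -/
def Sq (x : X) (ξ η : B) (q : E2) : ℝ := P.bq x ξ q + P.bq x η q

/-- the tensor: the inverse of the second derivative of `b_{em x} + b_η` at the point `η = pt x q`
of the leaf -/
def N0 (x : X) (q : E2) : E2 →L[ℝ] E2 := Ring.inverse (hess (P.Sq x (L.em x) (P.Af.pt x q)) q)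

/-- the tensor in the affine coordinate (`= c₀ N0 + smooth`) -/
def Na (x : X) (q : E2) : E2 →L[ℝ] E2 := P.Af.Na P.S.T x q

/-! ### the statements of the rows -/

/-- the clock -/
def sg (t : ℝ) (x : X) : ℝ := Clock.sg L P.Ra.c t x

/-- (RATE) the norm of the flow -/
def RateP : Prop := ∀ t, P.Ra.T ≤ t → ∀ x q,
  Real.exp (P.Ra.a * P.sg t x) * ‖q‖ ≤ ‖P.Af.P t x q‖ ∧
  ‖P.Af.P t x q‖ ≤ Real.exp (P.Ra.b * P.sg t x) * ‖q‖

/-- (T2), the generating functions: `κ < 2a/b` -/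
def T2d (ε₀ : ℝ) : Prop := ∀ κ : ℝ, κ * P.Ra.b < 2 * P.Ra.a → ∀ k : ℕ, 2 ≤ k → ∃ C, ∀ x ξ,
  P.Nr ε₀ x ξ → ∀ q ∈ ball (0 : E2) 1, ‖iteratedFDeriv ℝ k (P.dl x ξ) q‖ ≤ C * ‖P.gr x ξ 0‖ ^ κ

/-- (T2), the affine charts: `κ < 2a/b - 1` for the derivatives of order `≥ 2`; the first
derivative is close to the identity; the value at `0` is `O(t)` -/
def T2a (ε₀ : ℝ) : Prop := (∀ κ : ℝ, (κ + 1) * P.Ra.b < 2 * P.Ra.a → ∀ k : ℕ, 2 ≤ k → ∃ C, ∀ x ξ,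
    P.Nr ε₀ x ξ → ∀ q ∈ ball (0 : E2) 1,
      ‖iteratedFDeriv ℝ k (P.Aq x ξ) q‖ ≤ C * ‖P.gr x ξ 0‖ ^ κ) ∧
  (∀ ε : ℝ, 0 < ε → ∃ ρ : ℝ, 0 < ρ ∧ ∀ x ξ, P.Nr ρ x ξ → ∀ q ∈ ball (0 : E2) 1,
      ‖fderiv ℝ (P.Aq x ξ) q - ContinuousLinearMap.id ℝ E2‖ ≤ ε) ∧
  (∀ x ξ, P.Nr ε₀ x ξ → ContDiffOn ℝ ∞ (P.Aq x ξ) (ball 0 1)) ∧
  ∃ C, ∀ x ξ, P.Nr ε₀ x ξ → ‖P.Aq x ξ 0‖ ≤ C * ‖P.gr x ξ 0‖

/-- (T2), the holonomy in the coordinate `q`, to the second order in `C⁰` -/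
def T2h (ε₀ : ℝ) : Prop := ∃ C, ∀ x ξ, P.Nr ε₀ x ξ → ∀ q ∈ ball (0 : E2) 1,
  P.Hq x ξ q ∈ ball (0 : E2) 2 ∧ P.Th x ξ (P.Hq x ξ q) = P.Af.pt x q ∧
  P.hh x ξ q = P.Aq x ξ (P.Hq x ξ q) ∧
  ‖P.Hq x ξ q - q + P.N0 x q (P.gr x ξ q)‖ ≤ C * ‖P.gr x ξ 0‖ ^ 2

/-- (T3) the holonomy is of class `C¹`, with `Dh = D Aq + O(t^(1-ε))` -/
def T3 (ε₀ : ℝ) : Prop := (∀ x ξ, ξ ≠ L.ep x → ContDiffOn ℝ 1 (P.hh x ξ) {q | P.Af.pt x q ≠ ξ} ∧
    ∀ q, P.Af.pt x q ≠ ξ → (fderiv ℝ (P.hh x ξ) q).IsInvertible) ∧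
  ∀ κ : ℝ, κ < 1 → ∃ C, ∀ x ξ, P.Nr ε₀ x ξ → ∀ q ∈ ball (0 : E2) 1,
    ‖fderiv ℝ (P.hh x ξ) q - fderiv ℝ (P.Aq x ξ) q‖ ≤ C * ‖P.gr x ξ 0‖ ^ κ

/-- the pairing of the tensor with forms -/
def pr (N s : E2 →L[ℝ] E2) : ℝ := LinearMap.trace ℝ E2 ((N ∘L s : E2 →L[ℝ] E2) : E2 →ₗ[ℝ] E2)

/-- (SB) the S-bundle: the constant forms `s` for which `<N, s>` is smooth (it contains all
antisymmetric `s`) -/
def Sm (x : X) : Set (E2 →L[ℝ] E2) := {s | ContDiffOn ℝ ∞ (fun q => pr (P.Na x q) s) (ball 0 1)}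

/-- the push forward of a form -/
def push (A : E2 ≃L[ℝ] E2) (s : E2 →L[ℝ] E2) : E2 →L[ℝ] E2 :=
  ContinuousLinearMap.adjoint (A.symm : E2 →L[ℝ] E2) ∘L s ∘L (A.symm : E2 →L[ℝ] E2)

/-- (SB) the S-bundle is invariant under the flow and the change of frame, and local -/
def SB : Prop := (∀ t x s, s ∈ P.Sm x ↔ push (P.Af.P t x) s ∈ P.Sm (L.φ t x)) ∧
  (∀ x y, L.em x = L.em y → ∀ s, s ∈ P.Sm x ↔ push (P.Af.lin x y) s ∈ P.Sm y) ∧
  ∀ x s (O : Set E2), IsOpen O → O ⊆ ball 0 1 → O.Nonempty →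
    ContDiffOn ℝ ∞ (fun q => pr (P.Na x q) s) O → s ∈ P.Sm x

/-- (LQ) Lemma Q -/
def LQ : Prop := ∀ (κ : ℝ) (Mk : ℕ → ℝ), κ < 1 → ∃ C, ∀ (x : X) (σ : E2 → E2 →L[ℝ] E2) (F : E2 → ℝ)
  (d : ℝ), 0 < d → d ≤ 1 → ContDiffOn ℝ ∞ σ (ball 0 1) → ContDiffOn ℝ ∞ F (ball 0 1) →
  (∀ k, ∀ q ∈ ball (0 : E2) 1, ‖iteratedFDeriv ℝ k σ q‖ ≤ Mk k ∧ ‖iteratedFDeriv ℝ k F q‖ ≤ Mk k) →
  (∀ q ∈ ball (0 : E2) 1, |pr (P.Na x q) (σ q) - F q| ≤ d) →
  ∀ q ∈ ball (0 : E2) (1 / 2), ∃ s ∈ P.Sm x, ‖σ q - s‖ ≤ C * d ^ κ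

/-- (SINV) the S-bundle is invariant under the stable holonomy -/
def SInv : Prop := ∀ x ξ, ξ ≠ L.ep x → ∀ q, P.Af.pt x q ≠ ξ → ∀ A : E2 ≃L[ℝ] E2,
  (A : E2 →L[ℝ] E2) = fderiv ℝ (P.hh x ξ) q → ∀ s, s ∈ P.Sm x ↔ push A s ∈ P.Sm (L.hol ξ x)

/-- (DICH) the dichotomy -/
def Dich : Prop := (∀ x s, s ∈ P.Sm x) ∨
  ∀ x, ∀ s ∈ P.Sm x, (∀ v w, inner ℝ (s v) w = inner ℝ v (s w)) → s = 0

/-- (PROD) the rough space is not everything -/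
def Prod : Prop := ¬ ∀ x, ∀ s ∈ P.Sm x, (∀ v w, inner ℝ (s v) w = inner ℝ v (s w)) → s = 0

/-- (ALT) the smooth alternative -/
def Alt : Prop := (∀ x s, s ∈ P.Sm x) → SmoothAlt P.S.T

end Pic

end Vale.Agent.P207.N4.Y
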